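import Mathlib
import Vale.Agent.P200G.All

/-! The Eisenbud-Green-Harris conjecture when all degrees from the third on are equal. -/

open MvPolynomial in
theorem Vale.Agent.Results.P200.EqualDegrees.result (K : Type*) [Field K] (n c : ℕ)
    (h2 : 2 ≤ c) (hc : c ≤ n) (a : Fin c → ℕ) (ha : ∀ i, 2 ≤ a i) (hmono : Monotone a)
    (heq : ∀ i j : Fin c, 2 ≤ i.val → 2 ≤ j.val → a i = a j)
    (f : Fin c → MvPolynomial (Fin n) K) (hf : ∀ i, (f i).IsHomogeneous (a i))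
    (hreg : ∀ i g, f i * g ∈ Ideal.span (f '' {j | j < i}) → g ∈ Ideal.span (f '' {j | j < i}))
    (I : Ideal (MvPolynomial (Fin n) K)) (hI : ∀ p ∈ I, ∀ d, homogeneousComponent d p ∈ I)
    (hfI : ∀ i, f i ∈ I) :
    ∃ J : Ideal (MvPolynomial (Fin n) K),
      (∃ M : Set (Fin n →₀ ℕ), J = Ideal.span ((fun m => monomial m (1 : K)) '' M)) ∧
      (∀ i : Fin c, X (Fin.castLE hc i) ^ a i ∈ J) ∧
      ∀ d : ℕ,
        Module.finrank K ↥(homogeneousSubmodule (Fin n) K d ⊓ I.restrictScalars K) =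
          Module.finrank K ↥(homogeneousSubmodule (Fin n) K d ⊓ J.restrictScalars K) := by
  obtain ⟨M, h1, h3⟩ := Vale.Agent.P200G.egh_of_closed Vale.Agent.P200G.closedA K n c hc h2 a ha
    hmono heq f hf hreg I hI hfI
  exact ⟨_, ⟨M, rfl⟩, h1, h3⟩
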